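import Mathlib
import Vale.Agent.P121.Main

/-!
P121, Q1 is answered in the negative: an absolutely continuous probability measure on `ℝ³`
(even one with compact support and bounded density) with finite three-marginal Coulomb
transport value need not admit an optimal Monge plan.  The same holds in every dimension
`d ≥ 2`.
-/

namespace Vale.Agent.Results.P121.CoulombNoMonge

open MeasureTheory Vale.Agent.P121
open scoped ENNReal NNReal

theorem result :
    (¬ ∀ μ : Measure (Space 3), IsProbabilityMeasure μ → μ ≪ volume →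
        kantorovichValue μ < ∞ → HasOptimalMongePlan μ) ∧
    (∀ d : ℕ, 2 ≤ d → ∃ μ : Measure (Space d),
        IsProbabilityMeasure μ ∧ μ ≪ volume ∧ (∃ C : ℝ≥0, ∀ s, μ s ≤ C * volume s) ∧
        (∃ R : ℝ, μ (Metric.closedBall 0 R)ᶜ = 0) ∧
        kantorovichValue μ < ∞ ∧ ¬ HasOptimalMongePlan μ) := by
  have key : ∀ d : ℕ, 2 ≤ d → ∃ μ : Measure (Space d),
        IsProbabilityMeasure μ ∧ μ ≪ volume ∧ (∃ C : ℝ≥0, ∀ s, μ s ≤ C * volume s) ∧
        (∃ R : ℝ, μ (Metric.closedBall 0 R)ᶜ = 0) ∧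
        kantorovichValue μ < ∞ ∧ ¬ HasOptimalMongePlan μ := by
    intro d hd
    obtain ⟨μ, h1, h2, ⟨C, hC⟩, ⟨K, hK, hμK⟩, h4, h5⟩ := exists_no_optimal_monge hd
    refine ⟨μ, h1, h2, ⟨C, fun s => hC s⟩, ?_, h4, h5⟩
    obtain ⟨R, hR⟩ := hK.isBounded.subset_closedBall 0
    exact ⟨R, measure_mono_null (Set.compl_subset_compl.mpr hR) hμK⟩
  refine ⟨fun h => ?_, key⟩
  obtain ⟨μ, h1, h2, -, -, h3, h4⟩ := key 3 (by norm_num)
  exact h4 (h μ h1 h2 h3)

end Vale.Agent.Results.P121.CoulombNoMonge
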